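import Vale.Agent.P121.Final

open MeasureTheory
open scoped ENNReal

namespace Vale.Agent.Results.P121.NoMonge

open Vale.Agent.P121

/-- There is an absolutely continuous Borel probability measure on `ℝ³` with finite
three-marginal Coulomb Kantorovich value which admits no optimal Monge plan. -/
theorem result : ∃ μ : Measure (EuclideanSpace ℝ (Fin 3)),
    IsProbabilityMeasure μ ∧ μ ≪ volume ∧ kantorovichValue μ < ∞ ∧
      ¬ ∃ T₂ T₃ : EuclideanSpace ℝ (Fin 3) → EuclideanSpace ℝ (Fin 3), IsOptimalMonge μ T₂ T₃ :=
  exists_counterexample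

end Vale.Agent.Results.P121.NoMonge
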